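import Vale.Agent.Lib.P195H.Final

open CategoryTheory Abelian

universe u v

/-- Let `R` be an Artin algebra which is a local ring and self-injective, with Jacobson radical `J`.
Let `e ≥ 1` bound the composition length of `J³` (as a left module) and suppose that the composition
length of `R` exceeds `(e + 2)²`.  Every finitely generated left `R`-module `M` with
`Ext^i(M, M) = 0` for all `i > s`, for some `s`, is projective.  There is no bound on the Loewy
length of `R`.  The first conjunct records that `J⁴ = 0` gives `e = 1`, hence the bound `len R ≥ 10`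
in that case. -/
theorem Vale.Agent.Results.P195.ALocalSelfInjSmallCube.result
    {S : Type v} {R : Type u} [CommRing S] [IsArtinianRing S] [Ring R]
    [Algebra S R] [Module.Finite S R] [IsLocalRing R] (hinj : Module.Injective R R) :
    ((∀ a ∈ Ring.jacobson R, ∀ b ∈ Ring.jacobson R, ∀ c ∈ Ring.jacobson R,
        ∀ d ∈ Ring.jacobson R, a * b * c * d = 0) →
      Module.length R (Ring.jacobson R • (Ring.jacobson R • Ring.jacobson R) : Ideal R) ≤ 1) ∧
    ∀ e : ℕ, 1 ≤ e →
      Module.length R (Ring.jacobson R • (Ring.jacobson R • Ring.jacobson R) : Ideal R) ≤ e →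
      (((e + 2) ^ 2 : ℕ) : ℕ∞) < Module.length R R →
      ∀ (M : ModuleCat.{u} R) [Module.Finite R M] (s : ℕ),
      (∀ i : ℕ, s < i → ∀ x : Ext M M i, x = 0) → Module.Projective R M :=
  ⟨fun hJ => Vale.Agent.Lib.P195H.radCube_length_le_one' (S := S) hinj hJ,
    fun e he hJ3 hlen M _ s h =>
      Vale.Agent.Lib.P195H.local_selfinjective_small_cube (S := S) hinj e he hJ3 hlen M s h⟩
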