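import Vale.Agent.Lib.P195.Main
import Vale.Agent.Lib.P195H.Final
import Vale.Agent.Lib.P195.Ore.QCI
import Vale.Agent.Lib.P195.Ore.Main
import Vale.Agent.Lib.P195Q.Sum

open CategoryTheory Abelian

namespace Vale.Agent.Results.P195.BNaturalClasses

open Vale.Agent.Lib.P195 Vale.Agent.Lib.P195Q

universe u v

/-- Statement (a): Artin algebras with radical cube zero, using `Ext¹` and large degrees of self-extensions. -/
def CaseA : Prop :=
  ∀ (S : Type v) (R : Type u) [CommRing S] [IsArtinianRing S] [Ring R]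
      [Algebra S R] [Module.Finite S R],
      (∀ a ∈ Ring.jacobson R, ∀ b ∈ Ring.jacobson R, ∀ c ∈ Ring.jacobson R, a * b * c = 0) →
      ∀ (M : ModuleCat.{u} R) [Module.Finite R M],
      (∀ i : ℕ, 1 ≤ i → ∀ e : Ext M (ModuleCat.of R R) i, e = 0) →
      (∀ e : Ext M M 1, e = 0) →
      ∀ m : ℕ, (∀ i : ℕ, m < i → ∀ e : Ext M M i, e = 0) → Module.Projective R M

/-- Statement (b): Artin algebras with radical cube zero, a finite range of vanishing. -/
def CaseB : Prop :=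
  ∀ (S : Type v) (R : Type u) [CommRing S] [IsArtinianRing S] [Ring R]
      [Algebra S R] [Module.Finite S R],
      (∀ a ∈ Ring.jacobson R, ∀ b ∈ Ring.jacobson R, ∀ c ∈ Ring.jacobson R, a * b * c = 0) →
      ∀ (n : ℕ) (T : Fin n → ModuleCat.{u} R),
      (∀ Q : ModuleCat.{u} R, IsSimpleModule R Q → ∃ i, Nonempty (Q ≅ T i)) →
      ∀ (M : ModuleCat.{u} R) [Module.Finite R M],
      (∀ i : ℕ, 1 ≤ i → i ≤ 2 * n + 2 → ∀ e : Ext M M i, e = 0) →
      (∀ i : ℕ, 1 ≤ i → i ≤ 2 * n + 2 → ∀ e : Ext M (ModuleCat.of R R) i, e = 0) →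
      Module.Projective R M

/-- Statement (f): graded algebras with `A_0 = k^r`, a syzygy that is a sum of modules generated in one degree. -/
def CaseF : Prop :=
  ∀ (k : Type v) [Field k] (A : Type u) [Ring A] [Nontrivial A] [Algebra k A]
      [FiniteDimensional k A] (𝒜 : ℕ → Submodule k A) [GradedAlgebra 𝒜]
      (s : ℕ), (∀ i, s < i → 𝒜 i = ⊥) → ∀ (r : ℕ) (e : Fin r → A), (∀ i, e i ∈ 𝒜 0) →
      (∀ i, e i ≠ 0) → (∀ i, e i * e i = e i) → (∀ i j, i ≠ j → e i * e j = 0) →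
      (∑ i, e i = 1) → (∀ a ∈ 𝒜 0, ∃ c : Fin r → k, a = ∑ i, c i • e i) →
      ∀ (S : Syz A) (n : ℕ) (q : ℕ) (Z : Fin q → ModuleCat.{u} A) [∀ i, Module k (Z i)]
      [∀ i, IsScalarTower k A (Z i)] (ℳ : ∀ i, ℕ → Submodule k (Z i))
      [∀ i, DirectSum.Decomposition (ℳ i)] [∀ i, SetLike.GradedSMul 𝒜 (ℳ i)],
      (∀ i, Submodule.span A (ℳ i 0 : Set (Z i)) = ⊤) →
      (S.X n ≃ₗ[A] ∀ i, Z i) →
      (∀ i, 1 ≤ i → i ≤ (r + 2) * s + 2 → ∀ x : Ext (S.X 0) (S.X 0) i, x = 0) →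
      (∀ i, 1 ≤ i → i ≤ (r + 2) * s + 2 + n → ∀ x : Ext (S.X 0) (ModuleCat.of A A) i, x = 0) →
      Module.Projective A (S.X 0)

/-- Statement (c): local self-injective Artin algebras of any Loewy length, with `J³` small, and eventual vanishing; `J⁴ = 0` gives `e = 1`. -/
def CaseC : Prop :=
  ∀ (S : Type v) (R : Type u) [CommRing S] [IsArtinianRing S] [Ring R]
      [Algebra S R] [Module.Finite S R] [IsLocalRing R], Module.Injective R R →
      ((∀ a ∈ Ring.jacobson R, ∀ b ∈ Ring.jacobson R, ∀ c ∈ Ring.jacobson R,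
        ∀ d ∈ Ring.jacobson R, a * b * c * d = 0) →
        Module.length R (Ring.jacobson R • (Ring.jacobson R • Ring.jacobson R) : Ideal R) ≤ 1) ∧
      ∀ e : ℕ, 1 ≤ e →
      Module.length R (Ring.jacobson R • (Ring.jacobson R • Ring.jacobson R) : Ideal R) ≤ e →
      (((e + 2) ^ 2 : ℕ) : ℕ∞) < Module.length R R →
      ∀ (M : ModuleCat.{u} R) [Module.Finite R M] (m : ℕ),
      (∀ i : ℕ, m < i → ∀ x : Ext M M i, x = 0) → Module.Projective R M

/-- Statement (g): quantum complete intersections over an algebraically closed field. -/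
def CaseG : Prop :=
  ∀ (k : Type v) (R : Type u) [Field k] [IsAlgClosed k] [Ring R] [Algebra k R] (n : ℕ),
      Vale.Agent.Lib.P195.Ore.QuantumCI k R n → ∀ m : ℕ, Vale.Agent.Lib.P195.Ore.ARm R m

/-- Statement (h): truncated Ore extensions, with the automorphism on a polynomial curve. -/
def CaseH : Prop :=
  ∀ (k : Type v) (S R : Type u) [Field k] [IsAlgClosed k] [Ring S] [Algebra k S]
      [Module.Finite k S] [Ring R] [Algebra k R] (a : ℕ), 0 < a →
      ∀ (d : Vale.Agent.Lib.P195.Ore.OreData k S R a) (T : k → (S →ₐ[k] S)),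
      (∀ s, Vale.Agent.Lib.P195.Ore.PolyCurve (fun c => T c s)) → (∀ s, T 0 s = s) →
      (∀ s, T 1 s = d.σ s) →
      (∀ c s, T c (d.σ s) = d.σ (T c s)) →
      ∀ m : ℕ, Vale.Agent.Lib.P195.Ore.ARm S m → Vale.Agent.Lib.P195.Ore.ARm R m

/-- The conjunction of six statements on the Auslander-Reiten condition. -/
theorem result : CaseA.{u, v} ∧ CaseB.{u, v} ∧ CaseC.{u, v} ∧ CaseF.{u, v} ∧ CaseG.{u, v} ∧ CaseH.{u, v} := by
  refine ⟨?_, ?_, ?_, ?_, ?_, ?_⟩
  · intro S R _ _ _ _ _ hJ M _ h₂ h₁ m hm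
    exact ar_cube_zero_eventual (S := S) hJ M h₂ h₁ m hm
  · intro S R _ _ _ _ _ hJ n T hT M _ h₁ h₂
    exact ar_cube_zero_range (S := S) hJ T hT M h₁ h₂
  · intro S R _ _ _ _ _ _ hinj
    exact ⟨fun hJ => Vale.Agent.Lib.P195H.radCube_length_le_one' (S := S) hinj hJ,
      fun e he hJ3 hlen M _ m h =>
        Vale.Agent.Lib.P195H.local_selfinjective_small_cube (S := S) hinj e he hJ3 hlen M m h⟩
  · intro k _ A _ _ _ _ 𝒜 _ s hs r e he he0 hee heo he1 hspan S n q Z _ _ ℳ _ _ hgen iso hMM hMA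
    exact Vale.Agent.Lib.P195Q.projective_of_graded_syzygy_sum 𝒜 s hs e he he0 hee heo he1 hspan
      S n q Z ℳ hgen iso hMM hMA
  · intro k R _ _ _ _ n D m
    exact Vale.Agent.Lib.P195.Ore.quantumCI_arm n m R D
  · intro k S R _ _ _ _ _ _ _ a ha d T hT hT0 hT1 hTσ m hS
    exact d.ore_stable ha T hT hT0 hT1 hTσ m hS

end Vale.Agent.Results.P195.BNaturalClasses
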