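import Vale.Agent.Lib.P195.Ore.QCI
import Vale.Agent.Lib.P195.Ore.Main

namespace Vale.Agent.Results.P195.BQuantumOre

open Vale.Agent.Lib.P195.Ore

universe u v

/-- Over an algebraically closed field, `ARm R m` holds for all quantum complete intersections `R`, and `ARm S m` implies `ARm R m`
for truncated Ore extensions `R = S[x; σ] / (x ^ a)` of a finite-dimensional algebra `S`, with `σ` on a polynomial curve. -/
theorem result :
    (∀ (k : Type v) (R : Type u) [Field k] [IsAlgClosed k] [Ring R] [Algebra k R] (n : ℕ),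
      QuantumCI k R n → ∀ m : ℕ, ARm R m) ∧
    (∀ (k : Type v) (S R : Type u) [Field k] [IsAlgClosed k] [Ring S] [Algebra k S]
      [Module.Finite k S] [Ring R] [Algebra k R] (a : ℕ), 0 < a →
      ∀ (d : OreData k S R a) (T : k → (S →ₐ[k] S)),
      (∀ s, PolyCurve (fun c => T c s)) → (∀ s, T 0 s = s) → (∀ s, T 1 s = d.σ s) →
      (∀ c s, T c (d.σ s) = d.σ (T c s)) → ∀ m : ℕ, ARm S m → ARm R m) := by
  refine ⟨?_, ?_⟩
  · intro k R _ _ _ _ n D m
    exact quantumCI_arm n m R D
  · intro k S R _ _ _ _ _ _ _ a ha d T hT hT0 hT1 hTσ m hS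
    exact d.ore_stable ha T hT hT0 hT1 hTσ m hS

end Vale.Agent.Results.P195.BQuantumOre
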