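import Vale.Agent.Lib.P195Q.GapDefs

open CategoryTheory Abelian

namespace Vale.Agent.Results.P195.GradedGapSyzygy

open Vale.Agent.Lib.P195 Vale.Agent.Lib.P195Q

universe u v

variable {k : Type v} [Field k] {A : Type u} [Ring A] [Algebra k A]

/-- Let `A` be a nonzero finite-dimensional `k`-algebra with an `ℕ`-grading as in `QuiverGrading`, and let `S` be a minimal projective
resolution of `M = S.X 0`. Suppose that the terms `X_n`, `P_n`, `X_(n+1)` of one step of `S` are graded over `A` as in `GradedStep`, and that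
`VanishingRange` holds with `B = 2 T + (r + 1) s + 1`. Then `M` is projective if `X_n` is generated in degrees `≤ L`, and more generally if no nonzero
`A`-linear map `X_n → A` lowers degrees by some `d > L` and no nonzero `A`-linear map `X_n → X_(n+1)` preserves degrees. -/
theorem result [Nontrivial A] [FiniteDimensional k A]
    (𝒜 : ℕ → Submodule k A) [GradedAlgebra 𝒜] (s : ℕ) {r : ℕ} (e : Fin r → A)
    (hA : QuiverGrading 𝒜 s e)
    (S : Syz A) (n : ℕ) [Module k (S.X n)] [IsScalarTower k A (S.X n)]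
    [Module k (S.P n)] [IsScalarTower k A (S.P n)]
    [Module k (S.X (n + 1))] [IsScalarTower k A (S.X (n + 1))]
    (ℳ : ℕ → Submodule k (S.X n)) (ℬ : ℕ → Submodule k (S.P n)) (𝒴 : ℕ → Submodule k (S.X (n + 1)))
    [DirectSum.Decomposition ℳ] [DirectSum.Decomposition ℬ] [DirectSum.Decomposition 𝒴]
    [SetLike.GradedSMul 𝒜 ℳ] [SetLike.GradedSMul 𝒜 ℬ] [SetLike.GradedSMul 𝒜 𝒴]
    (L T : ℕ) (hS : GradedStep S n ℳ ℬ 𝒴 L T)
    (hV : VanishingRange S (2 * T + (r + 1) * s + 1) n) :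
    (NoLowering S n 𝒜 ℳ L → NoDegreeZero S n ℳ 𝒴 → Module.Projective A (S.X 0)) ∧
      (GenLE S n ℳ L → Module.Projective A (S.X 0)) := by
  obtain ⟨hs, he, he0, hee, heo, he1, hspan⟩ := hA
  obtain ⟨gι, gπ, hT, hY⟩ := hS
  obtain ⟨hMM, hMA⟩ := hV
  exact ⟨fun hu hθ => Vale.Agent.Lib.P195Q.projective_of_graded_gap 𝒜 s hs e he he0 hee heo he1 hspan S n
      ℳ ℬ 𝒴 gι gπ L T hT hY hu hθ hMM hMA,
    fun hgen => Vale.Agent.Lib.P195Q.projective_of_graded_gap_gen 𝒜 s hs e he he0 hee heo he1 hspan S n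
      ℳ ℬ 𝒴 gι gπ L T hT hY hgen hMM hMA⟩

end Vale.Agent.Results.P195.GradedGapSyzygy
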