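import Vale.Agent.Lib.P195Q.Sum

open CategoryTheory Abelian

namespace Vale.Agent.Results.P195.GradedQuiverSyzygy

open Vale.Agent.Lib.P195

universe u v

/-- Let `A` be a nonzero finite-dimensional `k`-algebra with an `ℕ`-grading such that `A_i = 0` for `i > s` and `A_0` is spanned
by nonzero orthogonal idempotents `e_1, ..., e_r` with sum `1`, and let `S` be a minimal projective resolution of `M = S.X 0`. Suppose
that some syzygy `S.X n` is a finite direct sum of modules `Z i`, each of them graded over `A` and generated by its part of degree `0`,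
and that `Ext^i(M, M) = 0` for `1 ≤ i ≤ B`, `Ext^i(M, A) = 0` for `1 ≤ i ≤ B + n`, with `B = (r + 2) s + 2`. Then `M` is projective. -/
theorem result {k : Type v} [Field k] {A : Type u} [Ring A] [Nontrivial A] [Algebra k A]
    [FiniteDimensional k A]
    (𝒜 : ℕ → Submodule k A) [GradedAlgebra 𝒜]
    (s : ℕ) (hs : ∀ i, s < i → 𝒜 i = ⊥) {r : ℕ} (e : Fin r → A) (he : ∀ i, e i ∈ 𝒜 0)
    (he0 : ∀ i, e i ≠ 0) (hee : ∀ i, e i * e i = e i) (heo : ∀ i j, i ≠ j → e i * e j = 0)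
    (he1 : ∑ i, e i = 1) (hspan : ∀ a ∈ 𝒜 0, ∃ c : Fin r → k, a = ∑ i, c i • e i)
    (S : Syz A) (n : ℕ) (q : ℕ) (Z : Fin q → ModuleCat.{u} A) [∀ i, Module k (Z i)]
    [∀ i, IsScalarTower k A (Z i)] (ℳ : ∀ i, ℕ → Submodule k (Z i))
    [∀ i, DirectSum.Decomposition (ℳ i)] [∀ i, SetLike.GradedSMul 𝒜 (ℳ i)]
    (hgen : ∀ i, Submodule.span A (ℳ i 0 : Set (Z i)) = ⊤)
    (iso : S.X n ≃ₗ[A] ∀ i, Z i)
    (hMM : ∀ i, 1 ≤ i → i ≤ (r + 2) * s + 2 → ∀ x : Ext (S.X 0) (S.X 0) i, x = 0)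
    (hMA : ∀ i, 1 ≤ i → i ≤ (r + 2) * s + 2 + n → ∀ x : Ext (S.X 0) (ModuleCat.of A A) i, x = 0) :
    Module.Projective A (S.X 0) :=
  Vale.Agent.Lib.P195Q.projective_of_graded_syzygy_sum 𝒜 s hs e he he0 hee heo he1 hspan S n q Z ℳ hgen iso hMM hMA

end Vale.Agent.Results.P195.GradedQuiverSyzygy
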