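import Vale.Agent.Lib.P195G.Wrap

open CategoryTheory Abelian

namespace Vale.Agent.Results.P195.GradedSyzygy

open Vale.Agent.Lib.P195

universe u v

/-- Let `A` be a connected `ℕ`-graded finite-dimensional `k`-algebra with `A_i = 0` for `i > s`, and let `S` be a
minimal projective resolution of `M = S.X 0`. If some syzygy `S.X n` is a graded module generated by its
piece of degree `0`, and `Ext^i(M, M) = 0` for `1 ≤ i ≤ 2 s + 1` and `Ext^i(M, A) = 0` for `1 ≤ i ≤ 2 s + 1 + n`,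
then `M` is projective. -/
theorem result {k : Type v} [Field k] {A : Type u} [Ring A] [Nontrivial A] [Algebra k A]
    [FiniteDimensional k A]
    (𝒜 : ℕ → Submodule k A) [GradedAlgebra 𝒜]
    (h0 : ∀ a ∈ 𝒜 0, ∃ c : k, a = algebraMap k A c) (s : ℕ) (hs : ∀ i, s < i → 𝒜 i = ⊥)
    (S : Syz A) (n : ℕ) [Module k (S.X n)] [IsScalarTower k A (S.X n)]
    (ℳ : ℕ → Submodule k (S.X n)) [DirectSum.Decomposition ℳ]
    [SetLike.GradedSMul 𝒜 ℳ] (hgen : Submodule.span A (ℳ 0 : Set (S.X n)) = ⊤)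
    (hMM : ∀ i, 1 ≤ i → i ≤ 2 * s + 1 → ∀ e : Ext (S.X 0) (S.X 0) i, e = 0)
    (hMA : ∀ i, 1 ≤ i → i ≤ 2 * s + 1 + n → ∀ e : Ext (S.X 0) (ModuleCat.of A A) i, e = 0) :
    Module.Projective A (S.X 0) :=
  Vale.Agent.Lib.P195G.projective_of_graded_syzygy 𝒜 h0 s hs S n ℳ hgen hMM hMA

end Vale.Agent.Results.P195.GradedSyzygy
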