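import Vale.Agent.Lib.P195.Ore.QCI

open Vale.Agent.Lib.P195.Ore

universe u v

/-- Over an algebraically closed field, every finitely generated module `M` over a quantum complete
intersection `R` with `Ext^i(M, R) = 0` for `i ≥ 1`, `Ext¹(M, M) = 0` and `Ext^i(M, M) = 0` for
all `i > m` is projective. -/
theorem Vale.Agent.Results.P195.QuantumCI.result {k : Type v} {R : Type u} [Field k] [IsAlgClosed k]
    [Ring R] [Algebra k R] {n : ℕ} (D : QuantumCI k R n) (m : ℕ) : ARm R m :=
  quantumCI_arm n m R D
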