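import Vale.Agent.Lib.P195.Main

open CategoryTheory Abelian

universe u v

/-- Over an Artin algebra `R` with radical cube zero, a finitely generated left module `M` with
`Ext^i(M, R) = 0` for all `i ≥ 1`, with `Ext^1(M, M) = 0` and with `Ext^i(M, M) = 0` for all `i > m`
is projective. The groups `Ext^i(M, M)` with `2 ≤ i ≤ m` are unrestricted. -/
theorem Vale.Agent.Results.P195.RadCubeExtOne.result
    {S : Type v} {R : Type u} [CommRing S] [IsArtinianRing S] [Ring R]
    [Algebra S R] [Module.Finite S R]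
    (hJ : ∀ a ∈ Ring.jacobson R, ∀ b ∈ Ring.jacobson R, ∀ c ∈ Ring.jacobson R, a * b * c = 0)
    (M : ModuleCat.{u} R) [Module.Finite R M]
    (h₂ : ∀ i : ℕ, 1 ≤ i → ∀ e : Ext M (ModuleCat.of R R) i, e = 0)
    (h₁ : ∀ e : Ext M M 1, e = 0)
    (m : ℕ) (hm : ∀ i : ℕ, m < i → ∀ e : Ext M M i, e = 0) :
    Module.Projective R M :=
  Vale.Agent.Lib.P195.ar_cube_zero_eventual (S := S) hJ M h₂ h₁ m hm
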