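import Vale.Agent.Lib.P195.Main

open CategoryTheory Abelian

universe u v

/-- A finite range form of the Auslander-Reiten conjecture for radical cube zero. Let `R` be an
Artin algebra with radical cube zero and let `T 0, ..., T (n-1)` contain every simple left
`R`-module up to isomorphism. A finitely generated left module `M` with `Ext^i(M, M) = 0` and
`Ext^i(M, R) = 0` for `1 ≤ i ≤ 2 n + 2` is projective. -/
theorem Vale.Agent.Results.P195.RadCubeRange.result
    {S : Type v} {R : Type u} [CommRing S] [IsArtinianRing S] [Ring R]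
    [Algebra S R] [Module.Finite S R]
    (hJ : ∀ a ∈ Ring.jacobson R, ∀ b ∈ Ring.jacobson R, ∀ c ∈ Ring.jacobson R, a * b * c = 0)
    {n : ℕ} (T : Fin n → ModuleCat.{u} R)
    (hT : ∀ Q : ModuleCat.{u} R, IsSimpleModule R Q → ∃ i, Nonempty (Q ≅ T i))
    (M : ModuleCat.{u} R) [Module.Finite R M]
    (h₁ : ∀ i : ℕ, 1 ≤ i → i ≤ 2 * n + 2 → ∀ e : Ext M M i, e = 0)
    (h₂ : ∀ i : ℕ, 1 ≤ i → i ≤ 2 * n + 2 → ∀ e : Ext M (ModuleCat.of R R) i, e = 0) :
    Module.Projective R M :=
  Vale.Agent.Lib.P195.ar_cube_zero_range (S := S) hJ T hT M h₁ h₂
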