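import Vale.Agent.Lib.P195.Main

open CategoryTheory Abelian

universe u v

/-- The Auslander-Reiten condition for a module with many syzygies of Loewy length at most two, over
an arbitrary Artin algebra. Let `T 0, ..., T (n-1)` contain every simple left `R`-module up to
isomorphism and let `s` be a minimal projective resolution of `M = s.X 0`, with syzygies `s.X k`. If
`M` satisfies the Auslander-Reiten condition and more than `2 n` syzygies `s.X k` are killed by
`J ^ 2`, then `M` is projective. The vanishing is only required in the range indicated. -/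
theorem Vale.Agent.Results.P195.SyzLoewyTwo.result
    {S : Type v} {R : Type u} [CommRing S] [IsArtinianRing S] [Ring R]
    [Algebra S R] [Module.Finite S R]
    {n : ℕ} (T : Fin n → ModuleCat.{u} R)
    (hT : ∀ Q : ModuleCat.{u} R, IsSimpleModule R Q → ∃ i, Nonempty (Q ≅ T i))
    (s : Vale.Agent.Lib.P195.Syz R) (K : Finset ℕ) (hK : 2 * n < K.card)
    (hJ : ∀ k ∈ K, ∀ a ∈ Ring.jacobson R, ∀ b ∈ Ring.jacobson R, ∀ x : s.X k, a • b • x = 0)
    (B : ℕ) (hKB : ∀ k ∈ K, k + 1 ≤ B)
    (hMR : ∀ a, 1 ≤ a → a ≤ B → ∀ e : Ext (s.X 0) (ModuleCat.of R R) a, e = 0)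
    (hM1 : ∀ e : Ext (s.X 0) (s.X 0) 1, e = 0)
    (hMM : ∀ k ∈ K, ∀ i ∈ K, k < i →
      (∀ e : Ext (s.X 0) (s.X 0) (i - k), e = 0) ∧ (∀ e : Ext (s.X 0) (s.X 0) (i - k + 1), e = 0)) :
    Module.Projective R (s.X 0) :=
  Vale.Agent.Lib.P195.ar_general (S := S) T hT s K hK hJ B hKB hMR hM1 hMM
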