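import Vale.Agent.Lib.P195.Bounded

open CategoryTheory Abelian

universe u v

/-- Let `A` be a finite-dimensional algebra over a field `k` and let `s` be a minimal projective
resolution of a finitely generated module `M = s.X 0`, with syzygies `s.X n`. If
`Ext^i(M, A) = 0` for all `i ≥ 1`, `Ext¹(M, M) = 0`, `Ext^i(M, M) = 0` for all `i > m`, and for
infinitely many `n` the syzygy `s.X n` is a finite direct sum of modules of length at most `D`,
then `M` is projective. -/
theorem Vale.Agent.Results.P195.ZBoundedSyzygy.result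
    {k : Type v} {A : Type u} [Field k] [Ring A] [Algebra k A] [Module.Finite k A]
    (s : Vale.Agent.Lib.P195.Syz A)
    (h₂ : ∀ i : ℕ, 1 ≤ i → ∀ e : Ext (s.X 0) (ModuleCat.of A A) i, e = 0)
    (h₁ : ∀ e : Ext (s.X 0) (s.X 0) 1, e = 0)
    (m : ℕ) (hm : ∀ i : ℕ, m < i → ∀ e : Ext (s.X 0) (s.X 0) i, e = 0)
    (D : ℕ)
    (hD : ∀ N : ℕ, ∃ n, N ≤ n ∧ ∃ (r : ℕ) (Y : Fin r → ModuleCat.{u} A),
      (∀ j, Module.length A (Y j) ≤ D) ∧ Nonempty (s.X n ≃ₗ[A] ∀ j, Y j)) :
    Module.Projective A (s.X 0) :=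
  Vale.Agent.Lib.P195.bounded_syzygy k s h₂ h₁ m hm D hD
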