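import Vale.Agent.Lib.P195F.Final

open CategoryTheory Abelian

universe u v

/-- Let `R` be an Artin algebra which is a local ring and self-injective, whose Jacobson radical `J`
satisfies `J⁴ = 0`, and whose composition length is at least ten.  Every finitely generated left
`R`-module `M` with `Ext^i(M, M) = 0` for all `i ≥ 1` is projective. -/
theorem Vale.Agent.Results.P195.ZLocalSelfInjRadFour.result
    {S : Type v} {R : Type u} [CommRing S] [IsArtinianRing S] [Ring R]
    [Algebra S R] [Module.Finite S R] [IsLocalRing R] (hinj : Module.Injective R R)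
    (hJ : ∀ a ∈ Ring.jacobson R, ∀ b ∈ Ring.jacobson R, ∀ c ∈ Ring.jacobson R,
      ∀ d ∈ Ring.jacobson R, a * b * c * d = 0)
    (hlen : 10 ≤ Module.length R R)
    (M : ModuleCat.{u} R) [Module.Finite R M]
    (h : ∀ i : ℕ, 1 ≤ i → ∀ e : Ext M M i, e = 0) : Module.Projective R M :=
  Vale.Agent.Lib.P195F.local_selfinjective_rad_four (S := S) hinj hJ hlen M h
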