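import Vale.Agent.Lib.P195.Ore.Main

open Vale.Agent.Lib.P195.Ore

universe u v

/-- Let `k` be an algebraically closed field, `S` a finite-dimensional `k`-algebra and
`R = S[x; σ] / (x ^ a)` a truncated Ore extension, where `σ` lies on a polynomial curve `T c` of
algebra endomorphisms of `S` commuting with `σ`, `T 0 = id`, `T 1 = σ`. If every finitely generated
`S`-module `M` with `Ext^i(M, S) = 0` for `i ≥ 1`, `Ext¹(M, M) = 0`, `Ext^i(M, M) = 0` for `i > m`
is projective, the same holds for `R`. -/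
theorem Vale.Agent.Results.P195.ZOreStable.result {k : Type v} {S R : Type u} [Field k]
    [IsAlgClosed k] [Ring S] [Algebra k S] [Module.Finite k S] [Ring R] [Algebra k R] {a : ℕ}
    (ha : 0 < a) (d : OreData k S R a) (T : k → (S →ₐ[k] S))
    (hT : ∀ s, PolyCurve (fun c => T c s)) (hT0 : ∀ s, T 0 s = s) (hT1 : ∀ s, T 1 s = d.σ s)
    (hTσ : ∀ c s, T c (d.σ s) = d.σ (T c s)) (m : ℕ) (hS : ARm S m) : ARm R m :=
  d.ore_stable ha T hT hT0 hT1 hTσ m hS
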